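import Vale.Agent.Lib.P063Alt.Width

open Vale.Agent.Lib.P063Alt in
/-- The Friedgut-Kalai threshold width theorem: for every `r ≥ 2` and `0 < ε < 1/2` there is a
positive constant `C` with `w_ε(P) ≤ C (log n)^(-r/(r-1))` for every `n ≥ r` and every nontrivial
increasing `r`-uniform hypergraph property `P` on `n` vertices. For `r = 2` the exponent is `-2`. -/
theorem Vale.Agent.Results.P063.FinsetWidth.result (r : ℕ) (hr : 2 ≤ r) (ε : ℝ) (hε0 : 0 < ε)
    (hε1 : ε < 1 / 2) :
    ∃ C : ℝ, 0 < C ∧ ∀ n : ℕ, r ≤ n → ∀ P : Set (Finset (Edge n r)),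
      IsInvariant P → IsIncreasing P → IsNontrivial P →
        width P ε ≤ C * (Real.log n) ^ (-((r : ℝ) / ((r : ℝ) - 1))) :=
  final r hr ε hε0 hε1
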