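import Vale.Agent.Lib.P063.Influence

open Vale.Agent.Lib.P063 in
/-- For every `r ≥ 2` there is `c > 0` such that for all `n ≥ r`, every `r`-uniform hypergraph
property `P` on `n` vertices (monotone or not) and every `0 < p < 1`:
`I_p(P) ≥ c Var_p(P) (log n)^(r/(r-1))`. -/
theorem Vale.Agent.Results.P063.InfluenceBound.result (r : ℕ) (hr : 2 ≤ r) :
    ∃ c : ℝ, 0 < c ∧ ∀ (n : ℕ), r ≤ n → ∀ P : Set (Edge n r → Bool), IsHypergraphProperty P →
      ∀ p : ℝ, 0 < p → p < 1 →
      c * (muP p P * (1 - muP p P)) * (Real.log n) ^ ((r : ℝ) / ((r : ℝ) - 1)) ≤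
        totalInfluence p P :=
  influence_main r hr
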